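import Vale.Agent.P032.S5.H378.BetaRaw

/-!
# P032: a centre with one special end of class BETA: there is an end of the letter `cd`

`exists_end3`: a closed, periodic cover by four letters in which the letter `3` accumulates with points
that carry neither `0` nor `1`: if there are only finitely many common points of `3` with `0` and `1`, then
there is an end `0|3` or `1|3`.  `BetaC.end3`: the same on the circle of a centre with a special end.
-/

open Set Filter Topology Metric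

noncomputable section

namespace Vale.Agent.P032.S5.H720

open Vale.Agent.P032.Six Vale.Agent.P032.Words Vale.Agent.P032.S5.H767 Vale.Agent.P032.S5.H349
open Vale.Agent.P032.S5.H378

/-- an interval covered by two closed sets without common points lies in one of them -/
theorem side {A B : Set ℝ} (hA : IsClosed A) (hB : IsClosed B) {x y : ℝ}
    (hcov : ∀ s ∈ Ioo x y, s ∈ A ∨ s ∈ B) (hdis : ∀ s ∈ Ioo x y, s ∈ A → s ∉ B) :
    (∀ s ∈ Ioo x y, s ∈ A) ∨ (∀ s ∈ Ioo x y, s ∈ B) := by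
  by_contra hc
  push Not at hc
  obtain ⟨⟨s, hs, hsA⟩, t, ht, htB⟩ := hc
  obtain ⟨r, hr, hrA, hrB⟩ := isPreconnected_closed_iff.1 (isPreconnected_Ioo (a := x) (b := y)) A B
    hA hB (fun r hr => hcov r hr) ⟨t, ht, (hcov t ht).resolve_right htB⟩
    ⟨s, hs, (hcov s hs).resolve_left hsA⟩
  exact hdis r hr hrA hrB

variable {X : Fin 4 → Set ℝ}

/-- without an end at `u` the letter `3` is open at `u` -/
theorem open3 (cl : ∀ l, IsClosed (X l)) (cover : ∀ u, ∃ l, u ∈ X l)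
    (two : ∀ u l m n, u ∈ X l → u ∈ X m → u ∈ X n → l = m ∨ m = n ∨ n = l)
    (ac : ∀ u, u ∈ X 2 → u ∉ X 3)
    (acc : ∀ u, u ∈ X 3 → ∃ᶠ s in 𝓝 u, s ∈ X 3 ∧ s ∉ X 0 ∧ s ∉ X 1) {u : ℝ} (hu : u ∈ X 3)
    (f : ∀ m : Fin 4, (m = 0 ∨ m = 1) → ∀ᶠ s in 𝓝[≠] u, s ∈ X m → s ∉ X 3)
    (noend : ∀ m : Fin 4, (m = 0 ∨ m = 1) → ¬ End X m 3 u) : X 3 ∈ 𝓝 u := by
  by_cases h : u ∈ X 0 ∨ u ∈ X 1
  · obtain ⟨m, hm, hum⟩ : ∃ m : Fin 4, (m = 0 ∨ m = 1) ∧ u ∈ X m := by
      rcases h with h | h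
      · exact ⟨0, Or.inl rfl, h⟩
      · exact ⟨1, Or.inr rfl, h⟩
    have only : ∀ l, u ∈ X l → l = m ∨ l = 3 := by
      intro l hl
      rcases two u l m 3 hl hum hu with h1 | h1 | h1
      · exact Or.inl h1
      · rcases hm with rfl | rfl <;> exact absurd h1 (by decide)
      · exact Or.inr h1.symm
    have near : ∀ᶠ s in 𝓝 u, ∀ l, s ∈ X l → l = m ∨ l = 3 := by
      rw [Filter.eventually_all]
      intro l
      by_cases hl : u ∈ X l
      · exact Filter.Eventually.of_forall fun s _ => only l hl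
      · filter_upwards [(cl l).isOpen_compl.mem_nhds hl] with s hs h1
        exact absurd h1 hs
    have near2 : ∀ᶠ s in 𝓝[≠] u, (s ∈ X m ∨ s ∈ X 3) ∧ (s ∈ X m → s ∉ X 3) := by
      filter_upwards [near.filter_mono nhdsWithin_le_nhds, f m hm] with s h1 h2
      obtain ⟨l, hl⟩ := cover s
      refine ⟨?_, h2⟩
      rcases h1 l hl with rfl | rfl
      · exact Or.inl hl
      · exact Or.inr hl
    obtain ⟨ε, hε, hs⟩ : ∃ ε > 0, ∀ s, |s - u| < ε → s ≠ u →
        (s ∈ X m ∨ s ∈ X 3) ∧ (s ∈ X m → s ∉ X 3) := by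
      obtain ⟨ε, hε, h1⟩ := Metric.eventually_nhds_iff.1 (eventually_nhdsWithin_iff.1 near2)
      exact ⟨ε, hε, fun s h2 h3 => h1 (by rw [Real.dist_eq]; exact h2) h3⟩
    have hL : ∀ s ∈ Ioo (u - ε) u, (s ∈ X m ∨ s ∈ X 3) ∧ (s ∈ X m → s ∉ X 3) := fun s h1 =>
      hs s (by rw [abs_lt]; constructor <;> linarith [h1.1, h1.2]) h1.2.ne
    have hR : ∀ s ∈ Ioo u (u + ε), (s ∈ X m ∨ s ∈ X 3) ∧ (s ∈ X m → s ∉ X 3) := fun s h1 =>
      hs s (by rw [abs_lt]; constructor <;> linarith [h1.1, h1.2]) h1.1.ne'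
    have eL : Ioo (u - ε) u ∈ 𝓝[<] u := Ioo_mem_nhdsLT (by linarith)
    have eR : Ioo u (u + ε) ∈ 𝓝[>] u := Ioo_mem_nhdsGT (by linarith)
    rcases side (cl m) (cl 3) (fun s h1 => (hL s h1).1) (fun s h1 => (hL s h1).2) with L | L <;>
      rcases side (cl m) (cl 3) (fun s h1 => (hR s h1).1) (fun s h1 => (hR s h1).2) with R | R
    · exfalso
      have h1 : ∀ᶠ s in 𝓝 u, s ∈ X m := by
        filter_upwards [Ioo_mem_nhds (show u - ε < u by linarith) (show u < u + ε by linarith)]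
          with s h1
        rcases lt_trichotomy s u with h2 | h2 | h2
        · exact L s ⟨h1.1, h2⟩
        · rw [h2]; exact hum
        · exact R s ⟨h2, h1.2⟩
      obtain ⟨s, ⟨-, h3, h4⟩, h5⟩ := ((acc u hu).and_eventually h1).exists
      rcases hm with rfl | rfl
      · exact h3 h5
      · exact h4 h5
    · exfalso
      refine noend m hm (Or.inl ⟨hum, hu, only, ?_, ?_⟩)
      · filter_upwards [eL] with s h1
        exact (hL s h1).2 (L s h1)
      · filter_upwards [eR] with s h1 h2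
        exact (hR s h1).2 h2 (R s h1)
    · exfalso
      refine noend m hm (Or.inr ⟨hu, hum, fun l hl => (only l hl).symm, ?_, ?_⟩)
      · filter_upwards [eL] with s h1 h2
        exact (hL s h1).2 h2 (L s h1)
      · filter_upwards [eR] with s h1
        exact (hR s h1).2 (R s h1)
    · filter_upwards [Ioo_mem_nhds (show u - ε < u by linarith) (show u < u + ε by linarith)]
        with s h1
      rcases lt_trichotomy s u with h2 | h2 | h2
      · exact L s ⟨h1.1, h2⟩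
      · rw [h2]; exact hu
      · exact R s ⟨h2, h1.2⟩
  · push Not at h
    have h2 : u ∉ X 2 := fun h2 => ac u h2 hu
    filter_upwards [(cl 0).isOpen_compl.mem_nhds h.1, (cl 1).isOpen_compl.mem_nhds h.2,
      (cl 2).isOpen_compl.mem_nhds h2] with s k0 k1 k2
    obtain ⟨l, hl⟩ := cover s
    fin_cases l
    · exact absurd hl k0
    · exact absurd hl k1
    · exact absurd hl k2
    · exact hl

/-- a mark, shifted by full turns -/
theorem mark_per (per : ∀ l u, u + 6 ∈ X l ↔ u ∈ X l) {l m : Fin 4} {v : ℝ} (h : Mark X l m v)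
    (n : ℤ) : Mark X l m (v + 6 * n) := by
  have hsh : ∀ (w : ℝ) (k : Fin 4), w ∈ X k → w - 6 * n ∈ X k := fun w k hw => by
    have := (perZ per (-n) k w).2 hw
    have e : w + 6 * ((-n : ℤ) : ℝ) = w - 6 * n := by push_cast; ring
    rwa [e] at this
  have t1 : Tendsto (fun w : ℝ => w - 6 * n) (𝓝[<] (v + 6 * n)) (𝓝[<] v) := by
    have := tendsto_add_left (v + 6 * n) (-(6 * n))
    simpa [sub_eq_add_neg] using this
  have t2 : Tendsto (fun w : ℝ => w - 6 * n) (𝓝[>] (v + 6 * n)) (𝓝[>] v) := by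
    have := tendsto_add_right (v + 6 * n) (-(6 * n))
    simpa [sub_eq_add_neg] using this
  refine ⟨(perZ per n _ _).2 h.mem_a, (perZ per n _ _).2 h.mem_b,
    fun k hk => h.only k ((perZ per n _ _).1 hk), ?_, ?_⟩
  · filter_upwards [t1.eventually h.left] with w hw h1
    exact hw (hsh w _ h1)
  · filter_upwards [t2.eventually h.right] with w hw h1
    exact hw (hsh w _ h1)

theorem end_per (per : ∀ l u, u + 6 ∈ X l ↔ u ∈ X l) {l m : Fin 4} {v : ℝ} (h : End X l m v)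
    (n : ℤ) : End X l m (v + 6 * n) :=
  h.imp (fun h => mark_per per h n) (fun h => mark_per per h n)

/-- finitely many points in a window: locally finite -/
theorem loc_fin (per : ∀ l u, u + 6 ∈ X l ↔ u ∈ X l) {m : Fin 4} {W : ℝ}
    (f : {s | W ≤ s ∧ s < W + 6 ∧ s ∈ X m ∧ s ∈ X 3}.Finite) (u : ℝ) :
    ∀ᶠ s in 𝓝[≠] u, s ∈ X m → s ∉ X 3 := by
  set n : ℤ := ⌊(u - W) / 6⌋ with hn
  have hfin : ((fun p : ℝ × ℤ => p.1 + 6 * (p.2 : ℝ)) ''
      ({s | W ≤ s ∧ s < W + 6 ∧ s ∈ X m ∧ s ∈ X 3} ×ˢ Set.Icc (n - 1) (n + 1))).Finite :=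
    (f.prod (Set.finite_Icc _ _)).image _
  have hcl := (hfin.subset (Set.diff_subset (t := {u}))).isClosed.isOpen_compl.mem_nhds
    (show u ∈ (((fun p : ℝ × ℤ => p.1 + 6 * (p.2 : ℝ)) ''
      ({s | W ≤ s ∧ s < W + 6 ∧ s ∈ X m ∧ s ∈ X 3} ×ˢ Set.Icc (n - 1) (n + 1))) \ {u})ᶜ from
      fun h => h.2 rfl)
  filter_upwards [nhdsWithin_le_nhds hcl, self_mem_nhdsWithin,
    nhdsWithin_le_nhds (Ioo_mem_nhds (show u - 1 < u by linarith) (show u < u + 1 by linarith))]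
    with s h1 h2 h3 h4 h5
  refine h1 ⟨?_, h2⟩
  have a1 := Int.floor_le ((u - W) / 6)
  have a2 := Int.lt_floor_add_one ((u - W) / 6)
  have b1 := Int.floor_le ((s - W) / 6)
  have b2 := Int.lt_floor_add_one ((s - W) / 6)
  rw [← hn] at a1 a2
  have key : ∀ l, s ∈ X l → s - 6 * (⌊(s - W) / 6⌋ : ℝ) ∈ X l := fun l hl => by
    have := (perZ per (-⌊(s - W) / 6⌋) l s).2 hl
    have e : s + 6 * ((-⌊(s - W) / 6⌋ : ℤ) : ℝ) = s - 6 * (⌊(s - W) / 6⌋ : ℝ) := by
      push_cast; ring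
    rwa [e] at this
  refine ⟨(s - 6 * (⌊(s - W) / 6⌋ : ℝ), ⌊(s - W) / 6⌋), ⟨⟨by linarith, by linarith, key _ h4,
    key _ h5⟩, ?_⟩, by ring⟩
  have c1 : ((n : ℝ) - 2) < (⌊(s - W) / 6⌋ : ℝ) := by linarith [h3.1, h3.2]
  have c2 : ((⌊(s - W) / 6⌋ : ℤ) : ℝ) < (n : ℝ) + 2 := by linarith [h3.1, h3.2]
  have d1 : n - 2 < ⌊(s - W) / 6⌋ := by exact_mod_cast c1
  have d2 : ⌊(s - W) / 6⌋ < n + 2 := by exact_mod_cast c2
  exact ⟨by omega, by omega⟩

/-- **An end of the letter `3`.** -/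
theorem exists_end3 (cl : ∀ l, IsClosed (X l)) (cover : ∀ u, ∃ l, u ∈ X l)
    (per : ∀ l u, u + 6 ∈ X l ↔ u ∈ X l)
    (two : ∀ u l m n, u ∈ X l → u ∈ X m → u ∈ X n → l = m ∨ m = n ∨ n = l)
    (ac : ∀ u, u ∈ X 2 → u ∉ X 3)
    (acc : ∀ u, u ∈ X 3 → ∃ᶠ s in 𝓝 u, s ∈ X 3 ∧ s ∉ X 0 ∧ s ∉ X 1)
    (n3 : (X 3).Nonempty) (n2 : (X 2).Nonempty) (W : ℝ)
    (f : ∀ m : Fin 4, (m = 0 ∨ m = 1) →
      {s | W ≤ s ∧ s < W + 6 ∧ s ∈ X m ∧ s ∈ X 3}.Finite) :
    ∃ s, W ≤ s ∧ s < W + 6 ∧ (End X 1 3 s ∨ End X 0 3 s) := by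
  by_contra hc
  push Not at hc
  have hop : IsOpen (X 3) := by
    rw [isOpen_iff_mem_nhds]
    intro u hu
    refine open3 cl cover two ac acc hu (fun m hm => loc_fin per (f m hm) u) ?_
    intro m hm he
    have a1 := Int.floor_le ((u - W) / 6)
    have a2 := Int.lt_floor_add_one ((u - W) / 6)
    have h1 := end_per per he (-⌊(u - W) / 6⌋)
    have h2 := hc (u + 6 * ((-⌊(u - W) / 6⌋ : ℤ) : ℝ)) (by push_cast; linarith)
      (by push_cast; linarith)
    rcases hm with rfl | rfl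
    · exact h2.2 h1
    · exact h2.1 h1
  have huniv : X 3 = univ := IsClopen.eq_univ ⟨cl 3, hop⟩ n3
  obtain ⟨u, hu⟩ := n2
  exact ac u hu (by rw [huniv]; exact mem_univ u)

variable {U : Fin 6 → Set ℂ} {T : ℂ → Set (Fin 6)} {z v : ℂ} {a b c d e f : Fin 6} {τ V : ℝ}

/-- exact arcs are dense in the letter `cd` -/
theorem acc3 (C : Ctr U T z a b c d e f) {u : ℝ} (hu : u ∈ Xs T z a b c d e f 3) :
    ∃ᶠ s in 𝓝 u, s ∈ Xs T z a b c d e f 3 ∧ s ∉ Xs T z a b c d e f 0 ∧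
      s ∉ Xs T z a b c d e f 1 := by
  obtain ⟨⟨ab, ac, ad, ae, af⟩, ⟨bc, bd, be, bf⟩, ⟨cd, ce, cf⟩, ⟨de, df⟩, ef⟩ := nd_ne C.nd
  intro hn
  have h1 : ∀ᶠ s in 𝓝 u, pt z s ∉ Ex T z {c, d} := by
    filter_upwards [hn] with s hs h2
    have hT : T (pt z s) = {c, d} := h2.2.self_of_nhdsWithin h2.1
    refine hs ⟨subset_closure h2, fun h5 => ?_, fun h5 => ?_⟩
    · have := h5.2
      rw [hT] at this
      rcases this with h | h
      exacts [ce h.symm, de h.symm]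
    · have := h5.2
      rw [hT] at this
      rcases this with h | h
      exacts [cf h.symm, df h.symm]
  have h2 := ev_circle z (p := fun q => q ∉ Ex T z {c, d}) h1
  have h3 : pt z u ∈ closure (Ex T z {c, d}) := hu
  rw [eventually_nhdsWithin_iff] at h2
  rw [mem_closure_iff_frequently] at h3
  obtain ⟨q, hq, hq2⟩ := (h3.and_eventually h2).exists
  exact hq2 hq.1 hq

/-- **There is an end of the letter `cd` at a centre with a special end of class BETA.** -/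
theorem _root_.Vale.Agent.P032.S5.H378.BetaC.end3 (B : BetaC U T z v a b c d e f τ)
    (hV : pt z V = v) (W : ℝ)
    (f1 : {s | W ≤ s ∧ s < W + 6 ∧ s ∈ Xs T z a b c d e f 1 ∧ s ∈ Xs T z a b c d e f 3}.Finite)
    (f0 : {s | W ≤ s ∧ s < W + 6 ∧ s ∈ Xs T z a b c d e f 0 ∧ s ∈ Xs T z a b c d e f 3}.Finite) :
    ∃ s, W ≤ s ∧ s < W + 6 ∧ s ≠ V ∧
      (End (Xs T z a b c d e f) 1 3 s ∨ End (Xs T z a b c d e f) 0 3 s) := by
  have R := B.rawV hV
  have n3 : (Xs T z a b c d e f 3).Nonempty := by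
    obtain ⟨p, hp⟩ := B.dp.arc2
    obtain ⟨s, rfl⟩ := exists_pt (z := z) (v := p) hp.1
    exact ⟨s, subset_closure ⟨hp.1, by simpa using hp.2⟩⟩
  have n2 : (Xs T z a b c d e f 2).Nonempty := by
    rcases B.sp hV with h | h
    · exact ⟨V, h.mem_b⟩
    · exact ⟨V, h.mem_a⟩
  obtain ⟨s, h1, h2, h3⟩ := exists_end3 R.closed R.cover R.per R.two R.ac
    (fun u hu => acc3 B.C hu) n3 n2 W (by
      rintro m (rfl | rfl)
      · exact f0
      · exact f1)
  refine ⟨s, h1, h2, ?_, h3⟩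
  rintro rfl
  have h4 : s ∈ Xs T z a b c d e f 3 := by
    rcases h3 with (h | h) | (h | h)
    exacts [h.mem_b, h.mem_a, h.mem_b, h.mem_a]
  rcases R.spv 3 h4 with h | h <;> exact absurd h (by decide)

end Vale.Agent.P032.S5.H720
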